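import Vale.Agent.P028.Divisors

/-!
# P028: the weak inhomogeneous Duffin-Schaeffer implication for denominators with a bounded
number of divisors, for every shift.
-/

open MeasureTheory

namespace Vale.Agent.Results.P028.BoundedDivisors

/-- For every bound `K`, every `ψ ≥ 0` and every real shift `γ`: if the weighted sum
`∑ φ(q) ψ(q) / q` restricted to the integers `q` with at most `K` divisors diverges, then for
almost every real `x` there are infinitely many `q ≥ 1` with `|q x - a - γ| < ψ q` for some
integer `a`. -/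
theorem result :
    ∀ (K : ℕ) (ψ : ℕ → ℝ), (∀ q, 0 ≤ ψ q) →
      ¬ Summable (fun q : ℕ =>
        if (Nat.divisors q).card ≤ K then (Nat.totient q : ℝ) / q * ψ q else 0) →
      ∀ γ : ℝ, ∀ᵐ x : ℝ,
        {q : ℕ | 0 < q ∧ ∃ a : ℤ, |(q : ℝ) * x - a - γ| < ψ q}.Infinite := by
  intro K ψ hψ0 hdiv γ
  apply Vale.Agent.P028.bounded_divisors K ψ hψ0 _ (fun _ => γ)
  intro hs
  apply hdiv
  refine Summable.of_nonneg_of_le ?_ ?_ hs
  · intro q
    split_ifs
    · exact mul_nonneg (by positivity) (hψ0 q)
    · exact le_rfl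
  · intro q
    split_ifs
    · have h1 : (Nat.totient q : ℝ) / q ≤ 1 := by
        apply div_le_one_of_le₀ _ (by positivity)
        exact_mod_cast Nat.totient_le q
      calc (Nat.totient q : ℝ) / q * ψ q ≤ 1 * ψ q :=
            mul_le_mul_of_nonneg_right h1 (hψ0 q)
        _ = ψ q := one_mul _
    · exact le_rfl

end Vale.Agent.Results.P028.BoundedDivisors
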