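import Vale.Agent.P028.Main

/-!
# P028: inhomogeneous approximation with arbitrary (even moving) shifts for approximating
functions supported on a set with bounded gcd sums.
-/

open MeasureTheory

namespace Vale.Agent.Results.P028.BoundedGcdSums

/-- Let `S` be a set of integers such that `∑_{1 ≤ q < r, q ∈ S} gcd(q,r) ≤ C r` for all `r ∈ S`.
If `ψ ≥ 0` vanishes off `S` and `∑ ψ(q)` diverges, then for every sequence of shifts `γ q`
almost every real `x` has infinitely many `q ≥ 1` with `|q x - a - γ q| < ψ q` for some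
integer `a`. -/
theorem result (S : Set ℕ) [DecidablePred (fun q => q ∈ S)] (C : ℝ)
    (hS : ∀ r ∈ S, ∑ q ∈ (Finset.Ico 1 r).filter (fun q => q ∈ S), (Nat.gcd q r : ℝ) ≤ C * r)
    (ψ : ℕ → ℝ) (hψ0 : ∀ q, 0 ≤ ψ q) (hψS : ∀ q, q ∉ S → ψ q = 0)
    (hdiv : ¬ Summable ψ) (γ : ℕ → ℝ) :
    ∀ᵐ x : ℝ, {q : ℕ | 0 < q ∧ ∃ a : ℤ, |(q : ℝ) * x - a - γ q| < ψ q}.Infinite :=
  Vale.Agent.P028.main S C hS ψ hψ0 hψS hdiv γ

end Vale.Agent.Results.P028.BoundedGcdSums
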