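import Vale.Agent.P028.Criterion
import Vale.Agent.P028.Main
import Vale.Agent.Results.P028.BoundedDivisors

/-!
# P028: all our sufficient conditions for the weak inhomogeneous Duffin-Schaeffer implication

One statement with four parts, valid for every shift (even a shift moving with `q` in parts 1-3),
without monotonicity of `ψ` and without any Diophantine condition on the shift.
-/

namespace Vale.Agent.Results.P028.Combined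

theorem result :
    -- (1) the gcd-sum criterion
    (∀ (ψ : ℕ → ℝ), (∀ q, 0 ≤ ψ q) → (∀ q, ψ q ≤ 1) → ∀ γ : ℕ → ℝ,
      (∀ M : ℝ, ∃ Q : ℕ, 0 < ∑ q ∈ Finset.Ico 1 Q, ψ q ∧
        M * (∑ q ∈ Finset.Ico 1 Q, ψ q + ∑ r ∈ Finset.Ico 1 Q, ψ r *
          ∑ q ∈ (Finset.Ico 1 r).filter (fun q => 0 < ψ q), (Nat.gcd q r : ℝ) / r)
          ≤ (∑ q ∈ Finset.Ico 1 Q, ψ q) ^ 2) →
      ∀ᵐ x : ℝ, {q : ℕ | 0 < q ∧ ∃ a : ℤ, |(q : ℝ) * x - a - γ q| < ψ q}.Infinite) ∧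
    -- (2) extra divergence against the divisor function
    (∀ (ψ : ℕ → ℝ), (∀ q, 0 ≤ ψ q) → (∀ q, ψ q ≤ 1) → ∀ γ : ℕ → ℝ,
      (∀ M : ℝ, ∃ Q : ℕ, 0 < ∑ q ∈ Finset.Ico 1 Q, ψ q ∧
        M * (∑ q ∈ Finset.Ico 1 Q, ((Nat.divisors q).card : ℝ) * ψ q)
          ≤ (∑ q ∈ Finset.Ico 1 Q, ψ q) ^ 2) →
      ∀ᵐ x : ℝ, {q : ℕ | 0 < q ∧ ∃ a : ℤ, |(q : ℝ) * x - a - γ q| < ψ q}.Infinite) ∧
    -- (3) supports with bounded gcd sums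
    (∀ (S : Set ℕ) [DecidablePred (fun q => q ∈ S)] (C : ℝ),
      (∀ r ∈ S, ∑ q ∈ (Finset.Ico 1 r).filter (fun q => q ∈ S), (Nat.gcd q r : ℝ) ≤ C * r) →
      ∀ (ψ : ℕ → ℝ), (∀ q, 0 ≤ ψ q) → (∀ q, q ∉ S → ψ q = 0) → ¬ Summable ψ →
      ∀ γ : ℕ → ℝ,
      ∀ᵐ x : ℝ, {q : ℕ | 0 < q ∧ ∃ a : ℤ, |(q : ℝ) * x - a - γ q| < ψ q}.Infinite) ∧
    -- (4) the implication of Q1 on integers with a bounded number of divisors
    (∀ (K : ℕ) (ψ : ℕ → ℝ), (∀ q, 0 ≤ ψ q) →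
      ¬ Summable (fun q : ℕ =>
        if (Nat.divisors q).card ≤ K then (Nat.totient q : ℝ) / q * ψ q else 0) →
      ∀ γ : ℝ, ∀ᵐ x : ℝ,
        {q : ℕ | 0 < q ∧ ∃ a : ℤ, |(q : ℝ) * x - a - γ| < ψ q}.Infinite) :=
  ⟨fun ψ h0 h1 γ H => Vale.Agent.P028.criterion ψ h0 h1 γ H,
   fun ψ h0 h1 γ H => Vale.Agent.P028.tau_criterion ψ h0 h1 γ H,
   fun S _ C hS ψ h0 hψS hdiv γ => Vale.Agent.P028.main S C hS ψ h0 hψS hdiv γ,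
   Vale.Agent.Results.P028.BoundedDivisors.result⟩

end Vale.Agent.Results.P028.Combined
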