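import Vale.Agent.P028.Criterion

/-!
# P028: a gcd-sum criterion for inhomogeneous approximation with arbitrary shifts.
-/

open MeasureTheory

namespace Vale.Agent.Results.P028.GcdCriterion

/-- Let `ψ : ℕ → [0,1]`, `Ψ(Q) = ∑_{1 ≤ q < Q} ψ(q)` and
`G(Q) = ∑_{1 ≤ q < r < Q, ψ(q) > 0} ψ(r) gcd(q,r) / r`. If `Ψ(Q)^2 / (Ψ(Q) + G(Q))` is unbounded
in `Q`, then for every sequence of shifts `γ q` almost every real `x` has infinitely many `q ≥ 1`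
with `|q x - a - γ q| < ψ q` for some integer `a`. -/
theorem result (ψ : ℕ → ℝ) (hψ0 : ∀ q, 0 ≤ ψ q) (hψ1 : ∀ q, ψ q ≤ 1) (γ : ℕ → ℝ)
    (H : ∀ M : ℝ, ∃ Q : ℕ, 0 < ∑ q ∈ Finset.Ico 1 Q, ψ q ∧
      M * (∑ q ∈ Finset.Ico 1 Q, ψ q + ∑ r ∈ Finset.Ico 1 Q, ψ r *
        ∑ q ∈ (Finset.Ico 1 r).filter (fun q => 0 < ψ q), (Nat.gcd q r : ℝ) / r)
        ≤ (∑ q ∈ Finset.Ico 1 Q, ψ q) ^ 2) :
    ∀ᵐ x : ℝ, {q : ℕ | 0 < q ∧ ∃ a : ℤ, |(q : ℝ) * x - a - γ q| < ψ q}.Infinite :=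
  Vale.Agent.P028.criterion ψ hψ0 hψ1 γ H

end Vale.Agent.Results.P028.GcdCriterion
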